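import Vale.Agent.P091.AD.H491.Noise
import Vale.Agent.P091.AD.H134.Refine

/-!
# P091, AD block, row AD-9 (helper491), part 4: assembly of `LocStep`

`GoodLaw` is the statement of helper208 (good letters, KL part); `locStep_of : GoodLaw → Trunc →
LocStep`.
-/

set_option autoImplicit false

open Finset Real
open Vale.Agent.P065.Ent

noncomputable section

namespace Vale.Agent.P091.AD.H491

/-- the hand-over statement: the law of the good letters and its noise bound -/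
def GoodLaw : Prop := ∃ C : ℝ, 1 ≤ C ∧ ∀ (Γ : Type) [AddCommGroup Γ] (A : Finset Γ)
  (lam : Law Γ) (Ω' : Type) [Fintype Ω'] (μ' : Ω' → ℝ) (ξ : Ω' → lam.Lt) (T : Ω' → Γ)
  (Hν κ ι δ D1 R : ℝ) (M : ℕ),
  IsLoc lam.N lam.zl lam.beta μ' ξ T Hν κ ι δ D1 → (∀ ω, lam.a ω ∈ A) → log A.card ≤ R →
  1 ≤ M → C * δ ≤ 1 / 2 → (C * δ) ^ M * R ≤ 1 →
  ∃ μ1 : Ω' → ℝ, IsProb μ1 ∧ (∀ ω, 0 < μ1 ω → 0 < μ' ω) ∧
    ∑ ω, μ1 ω * log (Pr μ1 (fun ω => (lam.a (ξ ω).1, (lam.z (ξ ω).1, lam.a (ξ ω).2)))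
          (lam.a (ξ ω).1, (lam.z (ξ ω).1, lam.a (ξ ω).2)) /
        (Pr μ1 (fun ω => (lam.z (ξ ω).1, lam.a (ξ ω).2)) (lam.z (ξ ω).1, lam.a (ξ ω).2) *
          (Pr lam.μ (fun ω => (lam.a ω, lam.z ω)) (lam.a (ξ ω).1, lam.z (ξ ω).1) /
            Pr lam.μ lam.z (lam.z (ξ ω).1)))) ≤ C * (D1 + 1) ∧
    Hc (fun w : Ω' × ((Fin M → Ω') × (Fin M → Ω')) => μ1 w.1 * (pw μ' w.2.1 * pw μ' w.2.2))
        (fun w => lam.a (ξ w.1).1 + (sm T w.2.1 - sm T w.2.2))
        (fun w => (lam.z (ξ w.1).1, lam.a (ξ w.1).2)) -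
      H (fun w : Ω' × ((Fin M → Ω') × (Fin M → Ω')) => μ1 w.1 * (pw μ' w.2.1 * pw μ' w.2.2))
        (fun w => sm T w.2.1 - sm T w.2.2) ≤ C * (ι + 1)

section
variable {Γ : Type} [AddCommGroup Γ] {Ω' : Type} [Fintype Ω'] {μ' : Ω' → ℝ}

lemma H_add_ge (hμ : IsProb μ') (T : Ω' → Γ) :
    H μ' T ≤ H (prd μ' μ') (fun v => T v.1 + T v.2) := by
  have h2 := prd_isProb hμ hμ
  have h4 := Hc_add_right (prd μ' μ') (fun v => T v.1) (fun v => T v.2) (fun _ => ())
  have h5 := Hc_anti h2 (fun v : Ω' × Ω' => T v.1 + T v.2)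
    (det_snd (fun v : Ω' × Ω' => T v.2) (fun _ => ()))
  rw [Hc_const h2] at h5
  have h6 : Hc (prd μ' μ') (fun v => T v.1) (fun v => (T v.2, ())) = H μ' T := by
    unfold Hc
    have f1 : H (prd μ' μ') (fun v => (T v.1, (T v.2, ()))) = 2 * H μ' T := by
      rw [H_prd hμ hμ T (fun v => (T v, ()))]
      rw [H_congr (X := fun v => (T v, ())) (Y := T) (det_fst _ _)
        ((Det.refl T).pair (det_const T ()))]
      ring
    have f2 : H (prd μ' μ') (fun v => (T v.2, ())) = H μ' T := by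
      rw [H_congr (X := fun v : Ω' × Ω' => (T v.2, ())) (Y := fun v => T v.2) (det_fst _ _)
        ((Det.refl _).pair (det_const _ ()))]
      exact H_snd hμ μ' T
    rw [f1, f2]; ring
  linarith

/-- relative entropy is nonnegative -/
lemma Dv_nonneg' {α : Type} [Fintype α] (hμ : IsProb μ') (X : Ω' → α) {b : α → ℝ} (hb : IsProb b)
    (hac : ∀ ω, 0 < μ' ω → 0 < b (X ω)) : 0 ≤ Dv μ' X b := by
  classical
  have h := gibbs hμ X (fun _ => ()) (fun _ x => b x) hac (fun _ x _ => hb.nonneg x) (fun _ => by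
    rw [← hb.sum]
    exact sum_le_sum_of_subset_of_nonneg (subset_univ _) fun x _ _ => hb.nonneg x)
  rw [Hc_const hμ] at h
  have h2 : Dv μ' X b = ∑ ω, μ' ω * (- log (b (X ω))) - H μ' X := by
    unfold Dv H
    rw [← sum_sub_distrib]
    refine sum_congr rfl fun ω _ => ?_
    rcases (hμ.nonneg ω).eq_or_lt with h0 | h0
    · rw [← h0]; ring
    · rw [log_div (Pr_pos hμ X h0).ne' (hac ω h0).ne']; ring
  linarith

end

/-- **AD-9 from the good letters and the truncation** -/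
theorem locStep_of (hG : GoodLaw) (hT : Trunc) : LocStep := by
  classical
  obtain ⟨C, hC1, hG⟩ := hG
  refine ⟨8 * C + 9, by linarith, ?_⟩
  intro Γ _ A lam Ω' _ μ' ξ T Hν κ ι δ D1 c R M K hloc hc hR hM hK hδ hδM
  -- `δ` nonnegative
  have hδ0 : 0 ≤ δ := (I_nonneg hloc.prob ξ T _).trans hloc.esc
  have hι0 : 0 ≤ ι := (I_nonneg hloc.prob ξ _ _).trans hloc.abs
  have hκ0 : 0 ≤ κ := by
    have h1 := H_add_ge hloc.prob T
    have h2 : H (prd μ' μ') (fun v => T v.1 + T v.2) - H μ' T ≤ κ := hloc.dbl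
    linarith
  have hD0 : 0 ≤ D1 := (Dv_nonneg' hloc.prob ξ lam.beta_isProb hloc.ac).trans hloc.div
  have hR0 : 0 ≤ R := (log_natCast_nonneg _).trans hR
  have hδ1 : C * δ ≤ 1 / 2 := by nlinarith
  have hδ2 : (C * δ) ^ M * R ≤ 1 := by
    refine le_trans (mul_le_mul_of_nonneg_right ?_ hR0) hδM
    exact pow_le_pow_left₀ (by positivity) (by nlinarith) M
  obtain ⟨μ1, h1, hac, hcost, hnoise⟩ := hG Γ A lam Ω' μ' ξ T Hν κ ι δ D1 R M hloc
    (fun ω => (hc ω).1) hR hM hδ1 hδ2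
  -- notation
  set a : Ω' → Γ := fun ω => lam.a (ξ ω).1 with ha
  set zz : Ω' → lam.Z × Γ := fun ω => (lam.z (ξ ω).1, lam.a (ξ ω).2) with hzz
  have hpw : IsProb (pw (ι := Fin M) μ') := pw_isProb hloc.prob
  set ρ : (Fin M → Ω') × (Fin M → Ω') → ℝ := prd (pw μ') (pw μ') with hρd
  have hρ : IsProb ρ := prd_isProb hpw hpw
  set n : (Fin M → Ω') × (Fin M → Ω') → Γ := fun w => sm T w.1 - sm T w.2 with hn
  have hn1 : Hc (prd μ1 ρ) (fun w => a w.1 + n w.2) (fun w => zz w.1) - H ρ n ≤ C * (ι + 1) := by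
    rw [← H_snd h1 ρ n]
    exact hnoise
  -- the law with looks
  set lam2 : Law Γ := Lk μ1 h1 a zz ρ hρ n K with hlam2
  set PP : Γ × lam.Z → ℝ := Pr lam.μ (fun ω => (lam.a ω, lam.z ω)) with hPP
  set PZ : lam.Z → ℝ := Pr lam.μ lam.z with hPZ
  have hPP0 : ∀ y, 0 ≤ PP y := fun y => Pr_nonneg lam.prob _ _
  have hPZ0 : ∀ y, 0 ≤ PZ y := fun y => Pr_nonneg lam.prob _ _
  have hle : ∀ x z, PP (x, z) ≤ PZ z := by
    intro x z
    rw [hPP, hPZ]
    unfold Pr
    refine sum_le_sum fun ω _ => ?_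
    by_cases h : (lam.a ω, lam.z ω) = (x, z)
    · rw [if_pos h, if_pos (Prod.mk.inj h).2]
    · rw [if_neg h]
      split_ifs
      · exact lam.prob.nonneg ω
      · exact le_rfl
  have hpos : ∀ ω, 0 < μ1 ω → 0 < PP (a ω, (zz ω).1) := by
    intro ω h0
    have h2 := hloc.ac ω (hac ω h0)
    have h3 : 0 < lam.μ (ξ ω).1 := by
      rcases (lam.prob.nonneg (ξ ω).1).eq_or_lt with h4 | h4
      · exfalso
        have : lam.beta (ξ ω) = 0 := by
          unfold Law.beta cc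
          split_ifs
          · rw [← h4]; simp
          · rfl
        rw [this] at h2
        exact lt_irrefl _ h2
      · exact h4
    exact Pr_pos lam.prob (fun ω => (lam.a ω, lam.z ω)) h3
  have hfstpos : ∀ w : Ω' × (Fin K → (Fin M → Ω') × (Fin M → Ω')), 0 < lam2.μ w → 0 < μ1 w.1 := by
    intro w hw
    rcases (h1.nonneg w.1).eq_or_lt with h4 | h4
    · exfalso
      have : lam2.μ w = 0 := by
        show μ1 w.1 * _ = 0
        rw [← h4, zero_mul]
      rw [this] at hw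
      exact lt_irrefl _ hw
    · exact h4
  set K0 : ℝ := C * (D1 + 1) + K * (C * (ι + 1)) with hK0
  -- the divergence
  have hdiv : ∑ w, lam2.μ w * log (Pr lam2.μ (fun w => (lam2.a w, lam2.z w)) (lam2.a w, lam2.z w)
      / (Pr lam2.μ lam2.z (lam2.z w) * (PP (lam2.a w, (lam2.z w).1.1) / PZ (lam2.z w).1.1))) ≤
      K0 := by
    have e1 := Hc_eq_sum lam2.prob lam2.a lam2.z
    have e2 := Hc_eq_sum h1 a zz
    have e3 : ∑ w, lam2.μ w * log (Pr lam2.μ (fun w => (lam2.a w, lam2.z w))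
        (lam2.a w, lam2.z w) / (Pr lam2.μ lam2.z (lam2.z w) *
          (PP (lam2.a w, (lam2.z w).1.1) / PZ (lam2.z w).1.1))) =
        - Hc lam2.μ lam2.a lam2.z +
          ∑ ω, μ1 ω * (- log (PP (a ω, (zz ω).1) / PZ (zz ω).1)) := by
      have hp := (push_fst μ1 (pw_isProb (ι := Fin K) hρ))
        (fun ω => - log (PP (a ω, (zz ω).1) / PZ (zz ω).1))
      have hp' : ∑ w, lam2.μ w * (- log (PP (a w.1, (zz w.1).1) / PZ (zz w.1).1)) =
          ∑ ω, μ1 ω * (- log (PP (a ω, (zz ω).1) / PZ (zz ω).1)) := hp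
      rw [← hp', e1, ← sum_neg_distrib, ← sum_add_distrib]
      refine sum_congr rfl fun w _ => ?_
      rcases (lam2.prob.nonneg w).eq_or_lt with h0 | h0
      · rw [← h0]; ring
      · have p1 := Pr_pos lam2.prob (fun w => (lam2.a w, lam2.z w)) h0
        have p2 := Pr_pos lam2.prob lam2.z h0
        have p3 : 0 < PP (lam2.a w, (lam2.z w).1.1) := hpos w.1 (hfstpos w h0)
        have p4 : 0 < PZ (lam2.z w).1.1 := p3.trans_le (hle _ _)
        have p5 := div_pos p3 p4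
        have e4 : log (PP (a w.1, (zz w.1).1) / PZ (zz w.1).1) =
          log (PP (lam2.a w, (lam2.z w).1.1) / PZ (lam2.z w).1.1) := rfl
        rw [e4, log_div p1.ne' (mul_pos p2 p5).ne', log_mul p2.ne' p5.ne', log_div p1.ne' p2.ne']
        ring
    have e5 : ∑ ω, μ1 ω * (- log (PP (a ω, (zz ω).1) / PZ (zz ω).1)) - Hc μ1 a zz ≤
        C * (D1 + 1) := by
      refine le_trans (le_of_eq ?_) hcost
      rw [e2, ← sum_sub_distrib]
      refine sum_congr rfl fun ω _ => ?_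
      rcases (h1.nonneg ω).eq_or_lt with h0 | h0
      · rw [← h0]; ring
      · have p1 := Pr_pos h1 (fun ω => (a ω, zz ω)) h0
        have p2 := Pr_pos h1 zz h0
        have p3 := hpos ω h0
        have p4 : 0 < PZ (zz ω).1 := p3.trans_le (hle _ _)
        have p5 := div_pos p3 p4
        have e4 : log (Pr μ1 (fun ω => (lam.a (ξ ω).1, (lam.z (ξ ω).1, lam.a (ξ ω).2)))
          (lam.a (ξ ω).1, (lam.z (ξ ω).1, lam.a (ξ ω).2)) /
        (Pr μ1 (fun ω => (lam.z (ξ ω).1, lam.a (ξ ω).2)) (lam.z (ξ ω).1, lam.a (ξ ω).2) *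
          (Pr lam.μ (fun ω => (lam.a ω, lam.z ω)) (lam.a (ξ ω).1, lam.z (ξ ω).1) /
            Pr lam.μ lam.z (lam.z (ξ ω).1)))) =
          log (Pr μ1 (fun ω => (a ω, zz ω)) (a ω, zz ω) / (Pr μ1 zz (zz ω) *
            (PP (a ω, (zz ω).1) / PZ (zz ω).1))) := rfl
        rw [e4, log_div p1.ne' (mul_pos p2 p5).ne', log_mul p2.ne' p5.ne', log_div p1.ne' p2.ne']
        ring
    have e6 : Hc μ1 a zz - Hc lam2.μ lam2.a lam2.z ≤
        K * (Hc (prd μ1 ρ) (fun w => a w.1 + n w.2) (fun w => zz w.1) - H ρ n) :=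
      Lk_cost
    have hK0' : (0 : ℝ) ≤ K := Nat.cast_nonneg K
    have e7 := mul_le_mul_of_nonneg_left hn1 hK0'
    rw [e3, hK0]
    linarith
  obtain ⟨lam', hcost', hh'⟩ := hT Γ A lam2 (fun l x => PP (x, l.1.1) / PZ l.1.1) c K0
    (fun w => (hc (ξ w.1).1).1)
    (fun l x => div_nonneg (hPP0 _) (hPZ0 _))
    (fun l => by
      rw [← sum_div]
      exact div_le_one_of_le₀ (lam.sum_Pr_le A l.1.1) (hPZ0 _))
    (fun l x hx => by
      by_cases h : ∃ ω, (lam.a ω, lam.z ω) = (x, l.1.1)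
      · obtain ⟨ω, hω⟩ := h
        obtain ⟨-, h2⟩ := hc ω
        obtain ⟨e1, e2⟩ := Prod.mk.inj hω
        rw [e1, e2] at h2
        rcases (hPZ0 l.1.1).eq_or_lt with h0 | h0
        · rw [← h0, div_zero, zero_mul]; exact (exp_pos c).le
        · rw [div_mul_eq_mul_div, div_le_iff₀ h0]
          exact h2
      · have h0 : PP (x, l.1.1) = 0 := Pr_eq_zero _ fun ω hω => h ⟨ω, hω⟩
        rw [h0, zero_div, zero_mul]
        exact (exp_pos c).le)
    (fun w hw => by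
      have p3 := hpos w.1 (hfstpos w hw)
      exact div_pos p3 (p3.trans_le (hle _ _)))
    hdiv
  have hKr : (1 : ℝ) ≤ K := by exact_mod_cast hK
  refine ⟨lam', fun ω => ⟨(hcost' ω).1, ?_⟩, fun k hk => ?_⟩
  · refine (hcost' ω).2.trans ?_
    refine mul_le_mul_of_nonneg_right (exp_le_exp.mpr ?_) (Pr_nonneg lam'.prob _ _)
    have hl2 : log 2 ≤ 1 := by
      have := log_two_lt_d9
      linarith
    have hx : 1 ≤ (K : ℝ) * (ι + 1) := by nlinarith
    have hy : K0 ≤ C * (K * (ι + 1) + D1 + 1) := by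
      rw [hK0]; nlinarith
    have hz : (9 : ℝ) ≤ 9 * (K * (ι + 1) + D1 + 1) := by nlinarith
    nlinarith
  · refine (hh' k hk).trans ?_
    have hk' : (0 : ℝ) < k := by
      have : 0 < k := by omega
      exact_mod_cast this
    refine mul_le_mul_of_nonneg_left ?_ (by positivity)
    have hsym : ∀ g, Pr ρ n (-g) = Pr ρ n g := fun g => noise_sym (pw μ') (sm T) g
    have b1 : lam2.h k ≤ H ρ n + 2 * k * (Hc μ1 a zz / K) := Lk_h hK hsym k
    have b2 : H ρ n ≤ H μ' T + 3 * M * κ := noise_H hloc.prob T hM hloc.dbl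
    have b3 : Hc μ1 a zz ≤ R := by
      have hne : 0 < A.card := by
        rcases isEmpty_or_nonempty Ω' with he | ⟨⟨ω⟩⟩
        · exfalso
          have := h1.sum
          simp at this
        · exact card_pos.mpr ⟨_, (hc (ξ ω).1).1⟩
      exact ((Hc_le_H h1 a zz).trans (H_le_log h1 a A (fun ω => (hc (ξ ω).1).1) hne)).trans hR
    have b4 : Hc μ1 a zz / K ≤ R / K := div_le_div_of_nonneg_right b3 (by linarith)
    have b5 : 2 * (k : ℝ) * (Hc μ1 a zz / K) ≤ 2 * k * (R / K) :=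
      mul_le_mul_of_nonneg_left b4 (by positivity)
    have b6 : (3 : ℝ) * M * κ ≤ (8 * C + 9) * M * κ := by
      have : (0 : ℝ) ≤ M * κ := by positivity
      nlinarith
    have b7 : 2 * (k : ℝ) * (R / K) = 2 * k * R / K := by ring
    have b8 := hloc.hT
    linarith

end Vale.Agent.P091.AD.H491
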