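import Vale.Agent.P091.AD.H491.Pw

/-!
# P091, AD block, row AD-9 (helper491), part 2: looks with an arbitrary noise space
-/

set_option autoImplicit false

open Finset Real
open Vale.Agent.P065.Ent

noncomputable section

namespace Vale.Agent.P091.AD.H491

section gen
variable {Ω Ω' Ξ Ξ' : Type*} [Fintype Ω] [Fintype Ω'] [Fintype Ξ] [Fintype Ξ']
variable {α β γ δ : Type*}

lemma Push.prd {μ : Ω → ℝ} {φ : Ω → Ω'} {μ' : Ω' → ℝ} {ν : Ξ → ℝ} {ψ : Ξ → Ξ'} {ν' : Ξ' → ℝ}
    (h : Push μ φ μ') (h' : Push ν ψ ν') :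
    Push (H491.prd μ ν) (fun w => (φ w.1, ψ w.2)) (H491.prd μ' ν') := by
  intro g
  unfold H491.prd
  rw [Fintype.sum_prod_type, Fintype.sum_prod_type]
  have e1 : ∀ ω, ∑ ξ, μ ω * ν ξ * g (φ ω, ψ ξ) = μ ω * ∑ ξ', ν' ξ' * g (φ ω, ξ') := by
    intro ω
    rw [← h' (fun ξ' => g (φ ω, ξ')), mul_sum]
    exact sum_congr rfl fun ξ _ => by ring
  have e2 : ∀ ω', ∑ ξ', μ' ω' * ν' ξ' * g (ω', ξ') = μ' ω' * ∑ ξ', ν' ξ' * g (ω', ξ') := by
    intro ω'
    rw [mul_sum]
    exact sum_congr rfl fun ξ _ => by ring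
  show ∑ ω, ∑ ξ, μ ω * ν ξ * g (φ ω, ψ ξ) = ∑ ω', ∑ ξ', μ' ω' * ν' ξ' * g (ω', ξ')
  rw [sum_congr rfl fun ω _ => e1 ω, sum_congr rfl fun ω _ => e2 ω]
  exact h (fun ω' => ∑ ξ', ν' ξ' * g (ω', ξ'))

lemma push_refl (μ : Ω → ℝ) : Push μ (fun ω => ω) μ := fun _ => rfl

/-- finite subadditivity -/
lemma Hc_pi_le {μ : Ω → ℝ} (hμ : IsProb μ) : ∀ (n : ℕ) (X : Fin n → Ω → α) (Z : Ω → β),
    Hc μ (fun ω i => X i ω) Z ≤ ∑ i, Hc μ (X i) Z := by
  intro n
  induction n with
  | zero =>
    intro X Z
    rw [Hc_eq_zero fun a b _ => funext fun i => i.elim0]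
    simp
  | succ n ih =>
    intro X Z
    rw [Fin.sum_univ_succ]
    have h1 : Hc μ (fun ω i => X i ω) Z = Hc μ (fun ω => (X 0 ω, fun i : Fin n => X i.succ ω)) Z := by
      refine Hc_congr ?_ ?_ (Det.refl Z) (Det.refl Z)
      · intro a b e
        refine Prod.ext (congrFun e 0) (funext fun i => congrFun e i.succ)
      · intro a b e
        simp only [Prod.mk.injEq] at e
        funext i
        refine Fin.cases e.1 (fun j => congrFun e.2 j) i
    rw [h1]
    have h2 := Hc_pair_le hμ (X 0) (fun ω (i : Fin n) => X i.succ ω) Z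
    have h3 := ih (fun i => X i.succ) Z
    linarith

/-- a permutation of the positions preserves the product weight -/
lemma push_perm {ι : Type*} [Fintype ι] (ρ : Ξ → ℝ) (σ : Equiv.Perm ι) [DecidableEq ι] :
    Push (pw ρ) (fun u : ι → Ξ => fun i => u (σ i)) (pw ρ) := by
  intro g
  rw [← Equiv.sum_comp (Equiv.arrowCongr σ.symm (Equiv.refl Ξ)) (fun u => pw ρ u * g u)]
  refine sum_congr rfl fun u _ => ?_
  have e : (Equiv.arrowCongr σ.symm (Equiv.refl Ξ)) u = fun i => u (σ i) := by
    funext i; rfl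
  rw [e]
  congr 1
  unfold pw
  exact (Equiv.prod_comp σ (fun i => ρ (u i))).symm

/-- split off the last position -/
lemma push_snoc (ρ : Ξ → ℝ) (K : ℕ) :
    Push (pw ρ) (fun u : Fin (K + 1) → Ξ => ((fun i : Fin K => u i.castSucc), u (Fin.last K)))
      (prd (pw ρ) ρ) := by
  intro g
  rw [← Equiv.sum_comp (Fin.snocEquiv (fun _ : Fin (K + 1) => Ξ))
    (fun u => pw ρ u * g ((fun i : Fin K => u i.castSucc), u (Fin.last K))),
    Fintype.sum_prod_type, Fintype.sum_prod_type_right]
  refine sum_congr rfl fun x _ => sum_congr rfl fun u _ => ?_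
  unfold pw prd
  rw [Fin.prod_univ_castSucc]
  simp [Fin.snocEquiv]

open Classical in
lemma Pr_noise {Γ : Type*} [AddCommGroup Γ] (μ : Ω → ℝ) (ρ : Ξ → ℝ) (n : Ξ → Γ) (a : Ω → Γ)
    (z : Ω → β) (v : Γ × β) :
    Pr (prd μ ρ) (fun w => (a w.1 + n w.2, z w.1)) v =
      ∑ ω, if z ω = v.2 then μ ω * Pr ρ n (v.1 - a ω) else 0 := by
  unfold Pr prd
  rw [Fintype.sum_prod_type]
  refine sum_congr rfl fun ω _ => ?_
  by_cases hz : z ω = v.2
  · rw [if_pos hz, mul_sum]
    refine sum_congr rfl fun ξ _ => ?_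
    by_cases hn : n ξ = v.1 - a ω
    · rw [if_pos (Prod.ext (by simp [hn]) hz), if_pos hn]
    · rw [if_neg hn, mul_zero, if_neg]
      intro e
      apply hn
      rw [← e]; simp
  · rw [if_neg hz]
    refine sum_eq_zero fun ξ _ => if_neg fun e => hz ?_
    rw [← e]

/-- the law of `(a + n, z)` on a product space depends only on the law of the noise -/
lemma Hc_noise_congr {Γ : Type*} [AddCommGroup Γ] {μ : Ω → ℝ} {ρ : Ξ → ℝ} {n : Ξ → Γ}
    {ρ' : Ξ' → ℝ} {n' : Ξ' → Γ} (hρ : IsProb ρ) (hρ' : IsProb ρ')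
    (h : ∀ g, Pr ρ n g = Pr ρ' n' g) (a : Ω → Γ) (z : Ω → β) :
    Hc (prd μ ρ) (fun w => a w.1 + n w.2) (fun w => z w.1) =
      Hc (prd μ ρ') (fun w => a w.1 + n' w.2) (fun w => z w.1) := by
  classical
  unfold Hc
  rw [H_fst μ hρ z, H_fst μ hρ' z]
  congr 1
  refine H_eq_of_law fun v => ?_
  have k1 := Pr_noise μ ρ n a z v
  have k2 := Pr_noise μ ρ' n' a z v
  refine k1.trans (Eq.trans ?_ k2.symm)
  exact sum_congr rfl fun ω _ => by rw [h]

end gen

/-! ## The slope after `K` looks -/

section looks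
variable {Ω Ξ : Type*} [Fintype Ω] [Fintype Ξ] {β : Type*} {Γ : Type*} [AddCommGroup Γ]
variable {μ : Ω → ℝ} {ρ : Ξ → ℝ}

/-- cost of `K` looks -/
theorem looks_cost (hμ : IsProb μ) (hρ : IsProb ρ) (a : Ω → Γ) (z : Ω → β) (n : Ξ → Γ) (K : ℕ) :
    Hc μ a z - Hc (prd μ (pw ρ)) (fun w => a w.1)
        (fun w => (z w.1, fun i : Fin K => a w.1 + n (w.2 i))) ≤
      K * (Hc (prd μ ρ) (fun w => a w.1 + n w.2) (fun w => z w.1) - H ρ n) := by
  have hρK := pw_isProb (ι := Fin K) hρ
  have hP := prd_isProb hμ hρK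
  set P := prd μ (pw (ι := Fin K) ρ) with hPd
  have h1 : Hc μ a z = Hc P (fun w => a w.1) (fun w => z w.1) := (Hc_fst μ hρK a z).symm
  have h2 : Hc P (fun w => a w.1) (fun w => (z w.1, fun i : Fin K => a w.1 + n (w.2 i))) =
      Hc P (fun w => a w.1) (fun w => ((fun i : Fin K => a w.1 + n (w.2 i)), z w.1)) :=
    Hc_congr (Det.refl _) (Det.refl _) (det_swap _ _) (det_swap _ _)
  have h3 : Hc P (fun w => a w.1) (fun w => z w.1) - Hc P (fun w => a w.1)
      (fun w => ((fun i : Fin K => a w.1 + n (w.2 i)), z w.1)) =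
      I P (fun w (i : Fin K) => a w.1 + n (w.2 i)) (fun w => a w.1) (fun w => z w.1) := by
    rw [I_symm]; rfl
  rw [h1, h2, h3]
  unfold I
  have h4 : Hc P (fun w (i : Fin K) => a w.1 + n (w.2 i)) (fun w => (a w.1, z w.1)) =
      K * H ρ n := by
    have e1 : Hc P (fun w (i : Fin K) => a w.1 + n (w.2 i)) (fun w => (a w.1, z w.1)) =
        Hc P (fun w (i : Fin K) => n (w.2 i)) (fun w => (a w.1, z w.1)) := by
      unfold Hc
      congr 1
      refine H_congr ?_ ?_
      · intro u v e
        simp only [Prod.mk.injEq] at e ⊢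
        refine ⟨funext fun i => ?_, e.2⟩
        have := congrFun e.1 i
        simp only [e.2.1] at this
        exact add_left_cancel this
      · intro u v e
        simp only [Prod.mk.injEq] at e ⊢
        refine ⟨funext fun i => ?_, e.2⟩
        have := congrFun e.1 i
        rw [e.2.1]
        rw [this]
    rw [e1, Hc_snd_fst hμ hρK (fun u (i : Fin K) => n (u i)) (fun ω => (a ω, z ω))]
    rw [H_pw hρ (fun _ => n)]
    simp
  have h5 : Hc P (fun w (i : Fin K) => a w.1 + n (w.2 i)) (fun w => z w.1) ≤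
      K * Hc (prd μ ρ) (fun w => a w.1 + n w.2) (fun w => z w.1) := by
    refine (Hc_pi_le hP K (fun i w => a w.1 + n (w.2 i)) (fun w => z w.1)).trans (le_of_eq ?_)
    have e1 : ∀ i : Fin K, Hc P (fun w => a w.1 + n (w.2 i)) (fun w => z w.1) =
        Hc (prd μ ρ) (fun w => a w.1 + n w.2) (fun w => z w.1) := fun i =>
      ((push_refl μ).prd (push_coord hρ i)).entc (fun w => a w.1 + n w.2) (fun w => z w.1)
    rw [sum_congr rfl fun i _ => e1 i]
    simp
  rw [h4]
  linarith

/-- one more look costs little -/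
theorem looks_next (hμ : IsProb μ) (hρ : IsProb ρ) (a : Ω → Γ) (z : Ω → β) (n : Ξ → Γ) (K : ℕ)
    (hK : 1 ≤ K) :
    Hc (prd (prd μ (pw ρ)) ρ) (fun w => a w.1.1 + n w.2)
        (fun w => (z w.1.1, fun i : Fin K => a w.1.1 + n (w.1.2 i))) ≤
      H ρ n + Hc μ a z / K := by
  classical
  have hρK := pw_isProb (ι := Fin (K + 1)) hρ
  have hQ := prd_isProb hμ hρK
  set Q := prd μ (pw (ι := Fin (K + 1)) ρ) with hQd
  -- transfer to `Fin (K + 1)` looks
  have hpush : Push Q (fun w => ((w.1, fun i : Fin K => w.2 i.castSucc), w.2 (Fin.last K)))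
      (prd (prd μ (pw ρ)) ρ) := by
    intro g
    have h1 := ((push_refl μ).prd (push_snoc ρ K)) (fun w => g ((w.1, w.2.1), w.2.2))
    refine h1.trans ?_
    unfold prd
    rw [Fintype.sum_prod_type, Fintype.sum_prod_type, Fintype.sum_prod_type]
    refine sum_congr rfl fun ω _ => ?_
    rw [Fintype.sum_prod_type]
    refine sum_congr rfl fun u _ => sum_congr rfl fun ξ _ => ?_
    simp only; ring
  rw [← hpush.entc (fun w => a w.1.1 + n w.2)
    (fun w => (z w.1.1, fun i : Fin K => a w.1.1 + n (w.1.2 i)))]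
  simp only
  -- looks
  set L : Fin (K + 1) → Ω × (Fin (K + 1) → Ξ) → Γ := fun i w => a w.1 + n (w.2 i) with hL
  set Z : Ω × (Fin (K + 1) → Ξ) → β := fun w => z w.1 with hZ
  set A : Ω × (Fin (K + 1) → Ξ) → Γ := fun w => a w.1 with hA
  set r : ℕ → Ω × (Fin (K + 1) → Ξ) → (Fin (K + 1) → Option Γ) :=
    fun m w i => if i.val < m then some (L i w) else none with hr
  have rdet : ∀ {m : ℕ} {u v : Ω × (Fin (K + 1) → Ξ)} {i : Fin (K + 1)}, r m u = r m v →
      i.val < m → L i u = L i v := by
    intro m u v i h hi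
    have := congrFun h i
    simpa [hr, hi] using this
  have hgoal : Hc Q (fun w => a w.1 + n (w.2 (Fin.last K)))
      (fun w => (z w.1, fun i : Fin K => a w.1 + n (w.2 i.castSucc))) =
      Hc Q (L (Fin.last K)) (fun w => (r K w, Z w)) := by
    refine Hc_congr (Det.refl _) (Det.refl _) ?_ ?_
    · intro u v e
      simp only [Prod.mk.injEq] at e ⊢
      refine ⟨?_, e.1⟩
      funext i
      simp only [hr]
      split_ifs with hi
      · have := congrFun e.2 ⟨i.val, hi⟩
        have hi' : (⟨i.val, hi⟩ : Fin K).castSucc = i := by ext; rfl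
        rw [hi'] at this
        rw [hL]; simp only [this]
      · rfl
    · intro u v e
      simp only [Prod.mk.injEq] at e ⊢
      refine ⟨e.2, funext fun i => ?_⟩
      exact rdet e.1 (i := i.castSucc) i.isLt
  rw [hgoal]
  -- (A) monotonicity by exchangeability
  have hA1 : ∀ m (hm : m < K), Hc Q (L (Fin.last K)) (fun w => (r K w, Z w)) ≤
      Hc Q (L ⟨m, hm.trans (Nat.lt_succ_self K)⟩) (fun w => (r m w, Z w)) := by
    intro m hm
    have h1 : Hc Q (L (Fin.last K)) (fun w => (r K w, Z w)) ≤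
        Hc Q (L (Fin.last K)) (fun w => (r m w, Z w)) := by
      refine Hc_anti hQ _ fun u v e => ?_
      simp only [Prod.mk.injEq] at e ⊢
      refine ⟨funext fun i => ?_, e.2⟩
      simp only [hr]
      split_ifs with hi
      · rw [rdet e.1 (hi.trans hm)]
      · rfl
    refine h1.trans (le_of_eq ?_)
    set i0 : Fin (K + 1) := ⟨m, hm.trans (Nat.lt_succ_self K)⟩ with hi0
    have h2 := ((push_refl μ).prd (push_perm ρ (Equiv.swap i0 (Fin.last K)))).entc
      (L (Fin.last K)) (fun w => (r m w, Z w))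
    rw [← h2]
    have e1 : (fun w : Ω × (Fin (K + 1) → Ξ) => L (Fin.last K)
        (w.1, fun i => w.2 (Equiv.swap i0 (Fin.last K) i))) = L i0 := by
      funext w
      simp only [hL, Equiv.swap_apply_right]
    have e2 : (fun w : Ω × (Fin (K + 1) → Ξ) =>
        (r m (w.1, fun i => w.2 (Equiv.swap i0 (Fin.last K) i)),
          Z (w.1, fun i => w.2 (Equiv.swap i0 (Fin.last K) i)))) = fun w => (r m w, Z w) := by
      funext w
      refine Prod.ext (funext fun i => ?_) rfl
      simp only [hr]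
      split_ifs with hi
      · have hne1 : i ≠ i0 := by
          intro h; rw [h, hi0] at hi; exact lt_irrefl _ hi
        have hne2 : i ≠ Fin.last K := by
          intro h; rw [h] at hi; simp only [Fin.val_last] at hi; omega
        simp only [hL, Equiv.swap_apply_of_ne_of_ne hne1 hne2]
      · rfl
    rw [e1, e2]
  -- (B) chain rule
  have hB : ∀ m ≤ K, (m : ℝ) * Hc Q (L (Fin.last K)) (fun w => (r K w, Z w)) ≤ Hc Q (r m) Z := by
    intro m
    induction m with
    | zero =>
      intro _
      rw [Nat.cast_zero, zero_mul]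
      exact Hc_nonneg hQ _ _
    | succ m ih =>
      intro hm
      have h1 := ih (Nat.le_of_succ_le hm)
      have h2 := hA1 m hm
      set i0 : Fin (K + 1) := ⟨m, (Nat.lt_of_succ_le hm).trans (Nat.lt_succ_self K)⟩ with hi0
      have h3 : Hc Q (r (m + 1)) Z = Hc Q (fun w => (L i0 w, r m w)) Z := by
        refine Hc_congr ?_ ?_ (Det.refl Z) (Det.refl Z)
        · intro u v e
          refine Prod.ext (rdet e (by simp [hi0])) (funext fun i => ?_)
          simp only [hr]
          split_ifs with hi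
          · rw [rdet e (hi.trans (Nat.lt_succ_self m))]
          · rfl
        · intro u v e
          simp only [Prod.mk.injEq] at e
          funext i
          simp only [hr]
          split_ifs with hi
          · rcases Nat.lt_succ_iff_lt_or_eq.mp hi with h | h
            · rw [rdet e.2 h]
            · have : i = i0 := by ext; rw [hi0]; exact h
              rw [this, e.1]
          · rfl
      rw [h3, Hc_pair]
      push_cast
      linarith
  -- (C) total
  have hC : Hc Q (r K) Z ≤ Hc μ a z + K * H ρ n := by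
    have h1 : Hc Q (r K) Z ≤ Hc Q (fun w => (r K w, A w)) Z :=
      Hc_mono_left hQ (det_fst _ _)
    have h2 := Hc_pair Q (r K) A Z
    have h3 : Hc Q A Z = Hc μ a z := Hc_fst μ hρK a z
    have h4 : Hc Q (r K) (fun w => (A w, Z w)) =
        Hc Q (fun w (i : Fin (K + 1)) => if i.val < K then some (n (w.2 i)) else none)
          (fun w => (A w, Z w)) := by
      unfold Hc
      congr 1
      refine H_congr ?_ ?_
      · intro u v e
        simp only [Prod.mk.injEq] at e ⊢
        refine ⟨funext fun i => ?_, e.2⟩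
        split_ifs with hi
        · have h5 := rdet e.1 hi
          have h6 : a u.1 = a v.1 := e.2.1
          simp only [hL, h6] at h5
          rw [add_left_cancel h5]
        · rfl
      · intro u v e
        simp only [Prod.mk.injEq] at e ⊢
        refine ⟨funext fun i => ?_, e.2⟩
        simp only [hr]
        have h5 := congrFun e.1 i
        have h6 : a u.1 = a v.1 := e.2.1
        split_ifs with hi
        · simp only [hi, if_true, Option.some.injEq] at h5
          simp only [hL, h5, h6]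
        · rfl
    have h5 : Hc Q (fun w (i : Fin (K + 1)) => if i.val < K then some (n (w.2 i)) else none)
          (fun w => (A w, Z w)) = K * H ρ n := by
      rw [Hc_snd_fst hμ hρK (fun u (i : Fin (K + 1)) => if i.val < K then some (n (u i)) else none)
        (fun ω => (a ω, z ω))]
      have h6 := H_pw (ι := Fin (K + 1)) hρ
        (fun i ξ => if i.val < K then some (n ξ) else none)
      rw [h6, Fin.sum_univ_castSucc]
      have h7 : ∀ i : Fin K, H ρ (fun ξ => if (i.castSucc : Fin (K + 1)).val < K then some (n ξ)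
          else none) = H ρ n := by
        intro i
        have : (i.castSucc : Fin (K + 1)).val < K := i.isLt
        simp only [this, if_true]
        exact H_congr (fun u v e => by simpa using e) (fun u v e => by simpa using e)
      have h8 : H ρ (fun ξ : Ξ => if (Fin.last K).val < K then some (n ξ) else none) = 0 := by
        have : ¬ (Fin.last K).val < K := by simp
        simp only [this, if_false]
        exact H_of_const hρ none
      rw [sum_congr rfl fun i _ => h7 i, h8]
      simp
    linarith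
  have h1 := hB K le_rfl
  have hK' : (0 : ℝ) < K := by exact_mod_cast hK
  have h2 : Hc Q (L (Fin.last K)) (fun w => (r K w, Z w)) ≤ (Hc μ a z + K * H ρ n) / K := by
    rw [le_div_iff₀ hK']
    linarith
  refine h2.trans (le_of_eq ?_)
  field_simp
  ring

end looks

end Vale.Agent.P091.AD.H491
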