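import Vale.Agent.P091.AD.H491.Looks

/-!
# P091, AD block, row AD-9 (helper491), part 3: the entropy of long sums against a noise

`h_le_noise`: `lam.h k ≤ H n + 2 k (H (a + n | z) - H n)` for a symmetric independent noise `n`.
-/

set_option autoImplicit false

open Finset Real
open Vale.Agent.P065.Ent

noncomputable section

namespace Vale.Agent.P091.AD.H491

/-! ## The two copies -/

section copies
variable {Ω : Type*} [Fintype Ω] {α β γ : Type*} {μ : Ω → ℝ}

lemma push_val (μ : Ω → ℝ) (z : Ω → γ) :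
    Push (ccp μ z) (fun p : CC z => p.1) (AD.cc μ z) := by
  classical
  intro g
  have h := sum_CC z (fun p : Ω × Ω => μ p.1 * μ p.2 / Pr μ z (z p.1) * g p)
  refine (show _ = _ from h).trans ?_
  rw [Fintype.sum_prod_type]
  refine sum_congr rfl fun a _ => sum_congr rfl fun b _ => ?_
  unfold AD.cc
  simp only
  by_cases h : z a = z b
  · rw [if_pos h, if_pos h]
  · rw [if_neg h, if_neg h, zero_mul]

lemma push_cc_fst (hμ : IsProb μ) (z : Ω → γ) : Push (AD.cc μ z) Prod.fst μ := by
  intro g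
  rw [← (push_val μ z) (fun p => g p.1)]
  exact sum_cc_fst hμ z g

lemma push_cc_snd (hμ : IsProb μ) (z : Ω → γ) : Push (AD.cc μ z) Prod.snd μ := by
  intro g
  rw [← (push_val μ z) (fun p => g p.2)]
  exact sum_cc_snd hμ z g

lemma cc_ne (z : Ω → γ) {p : Ω × Ω} (h : AD.cc μ z p ≠ 0) : z p.1 = z p.2 := by
  by_contra hne
  exact h (if_neg hne)

lemma I_copies (hμ : IsProb μ) (z : Ω → γ) (X : Ω → α) (Y : Ω → β) :
    I (AD.cc μ z) (fun p => X p.1) (fun p => Y p.2) (fun p => z p.1) = 0 := by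
  rw [← (push_val μ z).inf (fun p => X p.1) (fun p => Y p.2) (fun p => z p.1)]
  exact I_cc' hμ z X Y

end copies

/-! ## Sums of letters -/

section sums
variable {Γ : Type} [AddCommGroup Γ] {Ξ : Type} [Fintype Ξ] {ρ : Ξ → ℝ}

/-- one letter -/
lemma letter_noise (lam : Law Γ) (hρ : IsProb ρ) (n : Ξ → Γ) (hsym : ∀ g, Pr ρ n (-g) = Pr ρ n g) :
    Hc (prd lam.beta ρ) (fun w => lam.N w.1 + n w.2) (fun w => lam.zl w.1) - H ρ n ≤
      2 * (Hc (prd lam.μ ρ) (fun w => lam.a w.1 + n w.2) (fun w => lam.z w.1) - H ρ n) := by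
  have hβ := lam.beta_isProb
  have hP := prd_isProb hβ hρ
  set P := prd lam.beta ρ with hPd
  set Y : lam.Lt × Ξ → Γ := fun w => n w.2 with hY
  set X : ℕ → lam.Lt × Ξ → Γ := fun i w => if i = 0 then lam.a w.1.1 else - lam.a w.1.2 with hX
  set W : lam.Lt × Ξ → lam.Z := fun w => lam.z w.1.1 with hW
  have i1 : ∀ {ζ η : Type} (F : lam.Lt → ζ) (G : lam.Lt → η),
      I P (fun w => F w.1) Y (fun w => G w.1) = 0 := by
    intro ζ η F G
    have h := I_prd hβ hρ F n G (fun _ => ())
    rw [← h]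
    refine I_congr (Det.refl _) (Det.refl _) (Det.refl _) (Det.refl _) ?_ ?_
    · intro u v e
      simp only [Prod.mk.injEq] at e ⊢
      exact ⟨e, trivial⟩
    · intro u v e
      simp only [Prod.mk.injEq] at e
      exact e.1
  have k0 : I P Y (fun w => fun i : Fin 2 => X i w) W = 0 := by
    rw [I_symm]
    exact i1 (fun u (i : Fin 2) => if (i : ℕ) = 0 then lam.a u.1 else - lam.a u.2)
      (fun u => lam.z u.1)
  have k1 : ∀ m < 2, I P (X m) (fun w => (Y w, fun i : Fin m => X i w)) W = 0 := by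
    intro m hm
    interval_cases m
    · have h := i1 (fun u => lam.a u.1) (fun u => lam.z u.1)
      rw [← h]
      refine I_congr (Det.refl _) (Det.refl _) ?_ ?_ (Det.refl _) (Det.refl _)
      · exact det_fst _ _
      · intro u v e
        exact Prod.ext e (funext fun i => i.elim0)
    · have h1 : I P (X 1) (fun w => (Y w, fun i : Fin 1 => X i w)) W =
          I P (X 1) (fun w => (Y w, lam.a w.1.1)) W := by
        refine I_congr (Det.refl _) (Det.refl _) ?_ ?_ (Det.refl _) (Det.refl _)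
        · intro u v e
          simp only [Prod.mk.injEq] at e ⊢
          exact ⟨e.1, congrFun e.2 0⟩
        · intro u v e
          simp only [Prod.mk.injEq] at e ⊢
          refine ⟨e.1, funext fun i => ?_⟩
          have hi : (i : ℕ) = 0 := by omega
          simp only [hX, hi, if_true]
          exact e.2
      rw [h1, I_chain]
      have h2 : I P (X 1) (fun w => lam.a w.1.1) W = 0 := by
        have h3 := I_copies lam.prob lam.z lam.a (fun ω => - lam.a ω)
        have h4 := (push_fst lam.beta hρ).inf (fun u => - lam.a u.2) (fun u => lam.a u.1)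
          (fun u => lam.z u.1)
        have h5 : I P (X 1) (fun w => lam.a w.1.1) W =
          I P (fun w => - lam.a w.1.2) (fun w => lam.a w.1.1) (fun w => lam.z w.1.1) := by
            simp [hX, hW]
        rw [h5, h4, I_symm]
        exact h3
      have h3 : I P (X 1) Y (fun w => (lam.a w.1.1, W w)) = 0 := by
        have h4 := i1 (fun u => - lam.a u.2) (fun u => (lam.a u.1, lam.z u.1))
        have h5 : (X 1) = (fun w : lam.Lt × Ξ => - lam.a w.1.2) := by
          funext w; simp [hX]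
        rw [h5]; exact h4
      rw [h2, h3, add_zero]
  have h := kvm hP Y X W 2 k0 k1
  rw [Finset.sum_range_succ, Finset.sum_range_one] at h
  have e0 : (fun w : lam.Lt × Ξ => Y w + ∑ i ∈ range 2, X i w) =
      fun w => lam.N w.1 + n w.2 := by
    funext w
    rw [Finset.sum_range_succ, Finset.sum_range_one]
    simp only [hX, hY, if_true, one_ne_zero, if_false, Law.N]
    abel
  rw [e0] at h
  have e1 : Hc P Y W = H ρ n := Hc_snd_fst hβ hρ n (fun u => lam.z u.1)
  have e2 : Hc P (fun w => X 0 w + Y w) W =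
      Hc (prd lam.μ ρ) (fun w => lam.a w.1 + n w.2) (fun w => lam.z w.1) := by
    have := ((push_cc_fst lam.prob lam.z).prd (push_refl ρ)).entc
      (fun w => lam.a w.1 + n w.2) (fun w => lam.z w.1)
    exact this
  have e3 : Hc P (fun w => X 1 w + Y w) W =
      Hc (prd lam.μ ρ) (fun w => lam.a w.1 + n w.2) (fun w => lam.z w.1) := by
    have h5 : (fun w : lam.Lt × Ξ => X 1 w + Y w) = (fun w : lam.Lt × Ξ => - lam.a w.1.2 + n w.2) := by
      funext w; simp [hX, hY]
    have h6 : Hc P (fun w : lam.Lt × Ξ => - lam.a w.1.2 + n w.2) W =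
        Hc P (fun w : lam.Lt × Ξ => - lam.a w.1.2 + n w.2) (fun w => lam.z w.1.2) := by
      refine Hc_ae (fun _ _ => rfl) fun w hw => ?_
      refine cc_ne (μ := lam.μ) lam.z (p := w.1) fun h0 => hw ?_
      show lam.beta w.1 * ρ w.2 = 0
      have : lam.beta w.1 = 0 := h0
      rw [this, zero_mul]
    have h7 := ((push_cc_snd lam.prob lam.z).prd (push_refl ρ)).entc
      (fun w => - lam.a w.1 + n w.2) (fun w => lam.z w.1)
    have h8 : Hc P (fun w : lam.Lt × Ξ => - lam.a w.1.2 + n w.2) (fun w => lam.z w.1.2) =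
        Hc (prd lam.μ ρ) (fun w => - lam.a w.1 + n w.2) (fun w => lam.z w.1) := h7
    have h9 : Hc (prd lam.μ ρ) (fun w => - lam.a w.1 + n w.2) (fun w => lam.z w.1) =
        Hc (prd lam.μ ρ) (fun w => lam.a w.1 + - n w.2) (fun w => lam.z w.1) := by
      rw [← Hc_neg]
      congr 1
      funext w; abel
    have h10 : Hc (prd lam.μ ρ) (fun w => lam.a w.1 + - n w.2) (fun w => lam.z w.1) =
        Hc (prd lam.μ ρ) (fun w => lam.a w.1 + n w.2) (fun w => lam.z w.1) := by
      refine Hc_noise_congr (n := fun ξ => - n ξ) hρ hρ (fun g => ?_) lam.a lam.z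
      rw [← hsym g]
      classical
      unfold Pr
      refine sum_congr rfl fun ξ _ => ?_
      by_cases hg : n ξ = -g
      · rw [if_pos hg]
        exact if_pos (show - n ξ = g by rw [hg, neg_neg])
      · rw [if_neg hg]
        exact if_neg fun e => hg (by rw [← (show - n ξ = g from e), neg_neg])
    rw [h5, h6, h8, h9, h10]
  rw [e1, e2, e3] at h
  change Hc P (fun w => lam.N w.1 + n w.2) W - H ρ n ≤
    2 * (Hc (prd lam.μ ρ) (fun w => lam.a w.1 + n w.2) (fun w => lam.z w.1) - H ρ n)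
  linarith

/-- **sums along a word against a noise** (Kaimanovich-Vershik-Madiman) -/
theorem kvm_words {L ζ : Type} [Fintype L] {b : L → ℝ} (hb : IsProb b) (hρ : IsProb ρ)
    (n : Ξ → Γ) (z : L → ζ) (k : ℕ) (F : Fin k → L → Γ) :
    Hc (prd (pw b) ρ) (fun w => (∑ i, F i (w.1 i)) + n w.2) (fun w => lb z w.1) ≤
      H ρ n + ∑ i, (Hc (prd b ρ) (fun w => F i w.1 + n w.2) (fun w => z w.1) - H ρ n) := by
  classical
  have hβk := pw_isProb (ι := Fin k) hb
  have hP := prd_isProb hβk hρ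
  set P := prd (pw (ι := Fin k) b) ρ with hPd
  set Y : (Fin k → L) × Ξ → Γ := fun w => n w.2 with hY
  set X : ℕ → (Fin k → L) × Ξ → Γ := fun i w => if h : i < k then F ⟨i, h⟩ (w.1 ⟨i, h⟩) else 0
    with hX
  set W : (Fin k → L) × Ξ → (Fin k → ζ) := fun w => lb z w.1 with hW
  have i1 : ∀ {ζ η : Type} (F : (Fin k → L) → ζ) (G : (Fin k → L) → η),
      I P (fun w => F w.1) Y (fun w => G w.1) = 0 := by
    intro ζ η F G
    have h := I_prd hβk hρ F n G (fun _ => ())
    rw [← h]
    refine I_congr (Det.refl _) (Det.refl _) (Det.refl _) (Det.refl _) ?_ ?_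
    · intro u v e
      simp only [Prod.mk.injEq] at e ⊢
      exact ⟨e, trivial⟩
    · intro u v e
      simp only [Prod.mk.injEq] at e
      exact e.1
  have k0 : I P Y (fun w => fun i : Fin k => X i w) W = 0 := by
    rw [I_symm]
    exact i1 (fun u (i : Fin k) => if h : (i : ℕ) < k then F ⟨i, h⟩ (u ⟨i, h⟩) else 0) (lb z)
  have k1 : ∀ m < k, I P (X m) (fun w => (Y w, fun i : Fin m => X i w)) W = 0 := by
    intro m hm
    set S : Finset (Fin k) := {⟨m, hm⟩} with hS
    set T : Finset (Fin k) := univ.filter (fun i : Fin k => i.val < m) with hT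
    have hd : Disjoint S T := by
      rw [hS, disjoint_singleton_left, hT, mem_filter]
      rintro ⟨-, h⟩
      exact lt_irrefl _ h
    have a1 : I P (fun w => rs S w.1) (fun w => rs T w.1) W = 0 := by
      rw [← I_words hb z hd]
      exact (push_fst (pw (ι := Fin k) b) hρ).inf (rs S) (rs T) (lb z)
    have a2 : I P (fun w => rs S w.1) Y (fun w => (rs T w.1, W w)) = 0 :=
      i1 (rs S) (fun u => (rs T u, lb z u))
    have a3 : I P (fun w => rs S w.1) (fun w => (Y w, rs T w.1)) W = 0 := by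
      rw [I_chain, a1, a2, add_zero]
    have a4 : I P (fun w => rs S w.1) (fun w => (Y w, fun i : Fin m => X i w)) W = 0 := by
      refine I_zero_of_det hP a3 fun u v e => ?_
      simp only [Prod.mk.injEq] at e ⊢
      refine ⟨e.1.1, funext fun i => ?_⟩
      have hi : (i : ℕ) < k := i.isLt.trans hm
      simp only [hX, hi, dif_pos]
      rw [rs_det e.1.2 (i := ⟨i, hi⟩) (by rw [hT, mem_filter]; exact ⟨mem_univ _, i.isLt⟩)]
    refine le_antisymm ?_ (I_nonneg hP _ _ _)
    rw [← a4]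
    refine I_mono_left hP _ _ fun u v e => ?_
    simp only [hX, hm, dif_pos]
    rw [rs_det e (i := ⟨m, hm⟩) (by rw [hS]; exact mem_singleton_self _)]
  have h := kvm hP Y X W k k0 k1
  have e1 : Hc P Y W = H ρ n := Hc_snd_fst hβk hρ n (lb z)
  have e0 : (fun w : (Fin k → L) × Ξ => Y w + ∑ i ∈ range k, X i w) =
      fun w => (∑ i, F i (w.1 i)) + n w.2 := by
    funext w
    rw [Finset.sum_range, add_comm]
    congr 1
    refine sum_congr rfl fun i _ => ?_
    simp only [hX, i.isLt, dif_pos]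
  rw [e0, Finset.sum_range] at h
  refine h.trans ?_
  rw [e1]
  refine add_le_add_right (sum_le_sum fun i _ => ?_) _
  refine sub_le_sub_right ?_ _
  have b1 : Hc P (fun w => X i w + Y w) W ≤
      Hc P (fun w => X i w + Y w) (fun w => z (w.1 i)) :=
    Hc_anti hP _ fun u v e => congrFun e i
  refine b1.trans (le_of_eq ?_)
  have b2 := ((push_coord (ι := Fin k) hb i).prd (push_refl ρ)).entc
    (fun w => F i w.1 + n w.2) (fun w => z w.1)
  rw [← b2]
  congr 1
  funext w
  simp only [hX, i.isLt, dif_pos, hY]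

/-- **long sums against a noise** -/
theorem h_le_noise (lam : Law Γ) (hρ : IsProb ρ) (n : Ξ → Γ)
    (hsym : ∀ g, Pr ρ n (-g) = Pr ρ n g) (k : ℕ) :
    lam.h k ≤ H ρ n +
      2 * k * (Hc (prd lam.μ ρ) (fun w => lam.a w.1 + n w.2) (fun w => lam.z w.1) - H ρ n) := by
  have hβ := lam.beta_isProb
  have hβk := pw_isProb (ι := Fin k) hβ
  have hP := prd_isProb hβk hρ
  have h := kvm_words hβ hρ n lam.zl k (fun _ => lam.N)
  set P := prd (pw (ι := Fin k) lam.beta) ρ with hPd
  set Y : (Fin k → lam.Lt) × Ξ → Γ := fun w => n w.2 with hY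
  set W : (Fin k → lam.Lt) × Ξ → (Fin k → lam.Z) := fun w => lb lam.zl w.1 with hW
  -- lower bound
  have l1 : lam.h k ≤ Hc P (fun w => sm lam.N w.1 + Y w) W := by
    have b1 : lam.h k = Hc P (fun w => sm lam.N w.1) W :=
      (Hc_fst (pw (ι := Fin k) lam.beta) hρ (sm lam.N) (lb lam.zl)).symm
    have b2 : Hc P (fun w => sm lam.N w.1) (fun w => (Y w, W w)) =
        Hc P (fun w => sm lam.N w.1) W := by
      have h := I_prd hβk hρ (sm lam.N) n (lb lam.zl) (fun _ => ())
      have h' : I P (fun w => sm lam.N w.1) Y W = 0 := by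
        rw [← h]
        refine I_congr (Det.refl _) (Det.refl _) (Det.refl _) (Det.refl _) ?_ ?_
        · intro u v e
          simp only [Prod.mk.injEq] at e ⊢
          exact ⟨e, trivial⟩
        · intro u v e
          simp only [Prod.mk.injEq] at e
          exact e.1
      unfold I at h'
      linarith
    have b3 := Hc_add_right P (fun w => sm lam.N w.1) Y W
    have b4 := Hc_anti hP (fun w => sm lam.N w.1 + Y w) (det_snd Y W)
    linarith
  have t1 := letter_noise lam hρ n hsym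
  rw [sum_const, card_univ, Fintype.card_fin, nsmul_eq_mul] at h
  have t2 := mul_le_mul_of_nonneg_left t1 (Nat.cast_nonneg (α := ℝ) k)
  have t3 : Hc P (fun w => sm lam.N w.1 + Y w) W ≤
    H ρ n + k * (Hc (prd lam.beta ρ) (fun w => lam.N w.1 + n w.2) (fun w => lam.zl w.1) - H ρ n) := h
  linarith

end sums

/-! ## The law with `K` looks -/

section law
variable {Γ : Type} [AddCommGroup Γ] {Ω1 Ξ Z1 : Type} [Fintype Ω1] [Fintype Ξ]

/-- `K` looks `a + n_i` -/
def Lk (μ1 : Ω1 → ℝ) (h1 : IsProb μ1) (a : Ω1 → Γ) (z : Ω1 → Z1) (ρ : Ξ → ℝ) (hρ : IsProb ρ)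
    (n : Ξ → Γ) (K : ℕ) : Law Γ where
  Ω := Ω1 × (Fin K → Ξ)
  μ := prd μ1 (pw ρ)
  prob := prd_isProb h1 (pw_isProb hρ)
  Z := Z1 × (Fin K → Γ)
  z := fun w => (z w.1, fun i => a w.1 + n (w.2 i))
  a := fun w => a w.1

variable {μ1 : Ω1 → ℝ} {h1 : IsProb μ1} {a : Ω1 → Γ} {z : Ω1 → Z1} {ρ : Ξ → ℝ} {hρ : IsProb ρ}
  {n : Ξ → Γ} {K : ℕ}

theorem Lk_cost : Hc μ1 a z - Hc (Lk μ1 h1 a z ρ hρ n K).μ (Lk μ1 h1 a z ρ hρ n K).a
      (Lk μ1 h1 a z ρ hρ n K).z ≤
    K * (Hc (prd μ1 ρ) (fun w => a w.1 + n w.2) (fun w => z w.1) - H ρ n) :=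
  looks_cost h1 hρ a z n K

theorem Lk_h (hK : 1 ≤ K) (hsym : ∀ g, Pr ρ n (-g) = Pr ρ n g) (k : ℕ) :
    (Lk μ1 h1 a z ρ hρ n K).h k ≤ H ρ n + 2 * k * (Hc μ1 a z / K) := by
  have h2 := h_le_noise (Lk μ1 h1 a z ρ hρ n K) hρ n hsym k
  have h3 : Hc (prd (Lk μ1 h1 a z ρ hρ n K).μ ρ)
      (fun w => (Lk μ1 h1 a z ρ hρ n K).a w.1 + n w.2)
      (fun w => (Lk μ1 h1 a z ρ hρ n K).z w.1) ≤ H ρ n + Hc μ1 a z / K :=
    looks_next h1 hρ a z n K hK
  refine h2.trans ?_
  have h4 : (0 : ℝ) ≤ 2 * k := by positivity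
  have h5 := mul_le_mul_of_nonneg_left (sub_le_iff_le_add'.mpr h3) h4
  linarith

end law

/-! ## The entropy of the noise -/

section noise
variable {Γ : Type} [AddCommGroup Γ] {Ω' : Type} [Fintype Ω'] {μ' : Ω' → ℝ}

/-- the noise is symmetric -/
theorem noise_sym (ρ : Ω' → ℝ) (X : Ω' → Γ) (g : Γ) :
    Pr (prd ρ ρ) (fun w => X w.1 - X w.2) (-g) = Pr (prd ρ ρ) (fun w => X w.1 - X w.2) g := by
  classical
  have h1 : Push (prd ρ ρ) (fun w : Ω' × Ω' => (w.2, w.1)) (prd ρ ρ) := by
    intro f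
    rw [← Equiv.sum_comp (Equiv.prodComm Ω' Ω') (fun w => prd ρ ρ w * f w)]
    refine sum_congr rfl fun w _ => ?_
    show ρ w.1 * ρ w.2 * f (w.2, w.1) = ρ w.2 * ρ w.1 * f (w.2, w.1)
    ring
  rw [← h1.pr (fun w => X w.1 - X w.2) (-g)]
  unfold Pr
  refine sum_congr rfl fun w _ => ?_
  by_cases h : X w.1 - X w.2 = g
  · rw [if_pos h]
    exact if_pos (show X w.2 - X w.1 = -g by rw [← h, neg_sub])
  · rw [if_neg h]
    refine if_neg fun e => h ?_
    have e' : X w.2 - X w.1 = -g := e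
    rw [← neg_inj, ← e', neg_sub]

/-- split a long word -/
lemma push_append (ρ : Ω' → ℝ) (m n : ℕ) :
    Push (pw ρ) (fun u : Fin (m + n) → Ω' =>
      ((fun i : Fin m => u (Fin.castAdd n i)), (fun i : Fin n => u (Fin.natAdd m i))))
      (prd (pw ρ) (pw ρ)) := by
  intro g
  rw [← Equiv.sum_comp (Fin.appendEquiv m n) (fun u : Fin (m + n) → Ω' => pw ρ u *
    g ((fun i : Fin m => u (Fin.castAdd n i)), (fun i : Fin n => u (Fin.natAdd m i))))]
  refine sum_congr rfl fun w _ => ?_
  unfold pw prd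
  rw [Fin.prod_univ_add]
  simp [Fin.appendEquiv]

/-- difference of two copies -/
lemma H_diff_le (hμ : IsProb μ') (T : Ω' → Γ) {κ : ℝ}
    (hκ : H (prd μ' μ') (fun v => T v.1 + T v.2) - H μ' T ≤ κ) :
    H (prd μ' μ') (fun v => T v.1 - T v.2) - H μ' T ≤ 2 * κ := by
  have h2 := prd_isProb hμ hμ
  have h3 := prd_isProb hμ h2
  set P := prd μ' (prd μ' μ') with hP
  have h := ruzsa_dep' h3 (fun w => T w.1) (fun w => T w.2.1) (fun w => T w.2.2) (fun _ => ())
  rw [Hc_const h3, Hc_const h3, Hc_const h3] at h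
  have e1 : H P (fun w => T w.1 - T w.2.2) = H (prd μ' μ') (fun v => T v.1 - T v.2) :=
    ((push_refl μ').prd (push_snd hμ μ')).ent (fun v => T v.1 - T v.2)
  have e2 : H P (fun w => T w.1 + T w.2.1) = H (prd μ' μ') (fun v => T v.1 + T v.2) :=
    ((push_refl μ').prd (push_fst μ' hμ)).ent (fun v => T v.1 + T v.2)
  have e3 : H P (fun w => T w.2.1 + T w.2.2) = H (prd μ' μ') (fun v => T v.1 + T v.2) :=
    (push_snd hμ (prd μ' μ')).ent (fun v => T v.1 + T v.2)
  have e4 : Hc P (fun w => T w.2.1) (fun w => ((T w.1, T w.2.2), ())) = H μ' T := by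
    unfold Hc
    have f1 : H P (fun w => (T w.2.1, ((T w.1, T w.2.2), ()))) = 3 * H μ' T := by
      have f2 : H P (fun w => (T w.2.1, ((T w.1, T w.2.2), ()))) =
          H P (fun w => (T w.1, (T w.2.1, T w.2.2))) := by
        refine H_congr ?_ ?_
        · intro u v e
          simp only [Prod.mk.injEq] at e ⊢
          exact ⟨e.2.1.1, e.1, e.2.1.2⟩
        · intro u v e
          simp only [Prod.mk.injEq] at e ⊢
          exact ⟨e.2.1, ⟨e.1, e.2.2⟩, trivial⟩
      rw [f2, H_prd hμ h2 T (fun v => (T v.1, T v.2)), H_prd hμ hμ]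
      ring
    have f3 : H P (fun w => ((T w.1, T w.2.2), ())) = 2 * H μ' T := by
      have f4 : H P (fun w => ((T w.1, T w.2.2), ())) = H P (fun w => (T w.1, T w.2.2)) := by
        refine H_congr (det_fst _ _) ?_
        intro u v e
        exact Prod.ext e rfl
      have f5 : H P (fun w => (T w.1, T w.2.2)) = H (prd μ' μ') (fun v => (T v.1, T v.2)) :=
        ((push_refl μ').prd (push_snd hμ μ')).ent (fun v => (T v.1, T v.2))
      rw [f4, f5, H_prd hμ hμ]
      ring
    rw [f1, f3]; ring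
  rw [e1, e2, e3, e4] at h
  linarith

/-- **the entropy of the noise** -/
theorem noise_H (hμ : IsProb μ') (T : Ω' → Γ) {κ : ℝ} {M : ℕ} (hM : 1 ≤ M)
    (hκ : H (prd μ' μ') (fun v => T v.1 + T v.2) - H μ' T ≤ κ) :
    H (prd (pw (ι := Fin M) μ') (pw (ι := Fin M) μ')) (fun w => sm T w.1 - sm T w.2) ≤
      H μ' T + 3 * M * κ := by
  obtain ⟨m, rfl⟩ : ∃ m, M = m + 1 := ⟨M - 1, by omega⟩
  have hdiff := H_diff_le hμ T hκ
  have hm := pw_isProb (ι := Fin m) hμ
  have hm1 := pw_isProb (ι := Fin (m + 1)) hμ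
  have h2m := pw_isProb (ι := Fin (m + (m + 1))) hμ
  -- nonnegativity of `κ`
  have hκ0 : 0 ≤ κ := by
    have h1 : H μ' T ≤ H (prd μ' μ') (fun v => T v.1 + T v.2) := by
      have h2 := prd_isProb hμ hμ
      have h3 := I_prd hμ hμ T T (fun _ => ()) (fun _ => ())
      have h4 := Hc_add_right (prd μ' μ') (fun v => T v.1) (fun v => T v.2) (fun _ => ())
      have h5 := Hc_anti h2 (fun v : Ω' × Ω' => T v.1 + T v.2)
        (det_snd (fun v : Ω' × Ω' => T v.2) (fun _ => ()))
      rw [Hc_const h2] at h5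
      have h6 : Hc (prd μ' μ') (fun v => T v.1) (fun v => (T v.2, ())) = H μ' T := by
        unfold Hc
        have f1 : H (prd μ' μ') (fun v => (T v.1, (T v.2, ()))) = 2 * H μ' T := by
          rw [H_prd hμ hμ T (fun v => (T v, ()))]
          rw [H_congr (X := fun v => (T v, ())) (Y := T) (det_fst _ _)
            ((Det.refl T).pair (det_const T ()))]
          ring
        have f2 : H (prd μ' μ') (fun v => (T v.2, ())) = H μ' T := by
          rw [H_congr (X := fun v : Ω' × Ω' => (T v.2, ())) (Y := fun v => T v.2) (det_fst _ _)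
            ((Det.refl _).pair (det_const _ ()))]
          exact H_snd hμ μ' T
        rw [f1, f2]; ring
      linarith
    linarith
  have h := kvm_words (b := μ') hμ (ρ := μ') hμ T (fun _ => ()) (m + (m + 1))
    (Fin.addCases (fun _ => T) (fun _ v => - T v))
  rw [Fin.sum_univ_add] at h
  simp only [Fin.addCases_left, Fin.addCases_right] at h
  have hP := prd_isProb h2m hμ
  have e1 : ∀ {F : (Fin (m + (m + 1)) → Ω') × Ω' → Γ},
      Hc (prd (pw μ') μ') F (fun w => lb (fun _ => ()) w.1) = H (prd (pw μ') μ') F := by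
    intro F
    rw [← Hc_const hP F ()]
    exact Hc_congr (Det.refl _) (Det.refl _) (fun _ _ _ => rfl) (fun _ _ _ => rfl)
  have e2 : ∀ {F : Ω' × Ω' → Γ},
      Hc (prd μ' μ') F (fun _ => ()) = H (prd μ' μ') F := fun {F} =>
    Hc_const (prd_isProb hμ hμ) F ()
  rw [e1, e2, e2, sum_const, sum_const, card_univ, card_univ, Fintype.card_fin, Fintype.card_fin,
    nsmul_eq_mul, nsmul_eq_mul] at h
  -- the laws
  have hL : H (prd (pw μ') μ') (fun w : (Fin (m + (m + 1)) → Ω') × Ω' =>
      (∑ i, (Fin.addCases (motive := fun _ => Ω' → Γ) (fun _ => T) (fun _ v => - T v) i) (w.1 i)) +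
        T w.2) =
      H (prd (pw (ι := Fin (m + 1)) μ') (pw (ι := Fin (m + 1)) μ'))
        (fun w => sm T w.1 - sm T w.2) := by
    -- common space
    have p1 := ((push_snoc μ' m).prd (push_refl (pw (ι := Fin (m + 1)) μ'))).ent
      (fun w => (sm T w.1.1 + T w.1.2) - sm T w.2)
    have q1 : H (prd (pw (ι := Fin (m + 1)) μ') (pw (ι := Fin (m + 1)) μ'))
        (fun w => sm T w.1 - sm T w.2) =
        H (prd (prd (pw (ι := Fin m) μ') μ') (pw (ι := Fin (m + 1)) μ'))
          (fun w => (sm T w.1.1 + T w.1.2) - sm T w.2) := by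
      rw [← p1]
      congr 1
      funext w
      congr 1
      unfold sm
      rw [Fin.sum_univ_castSucc]
    rw [q1]
    have p2 : Push (prd (pw (ι := Fin (m + (m + 1))) μ') μ')
        (fun w => (((fun i : Fin m => w.1 (Fin.castAdd (m + 1) i)), w.2),
          (fun i : Fin (m + 1) => w.1 (Fin.natAdd m i))))
        (prd (prd (pw (ι := Fin m) μ') μ') (pw (ι := Fin (m + 1)) μ')) := by
      intro g
      have r1 := ((push_append μ' m (m + 1)).prd (push_refl μ')) (fun w => g ((w.1.1, w.2), w.1.2))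
      refine r1.trans ?_
      unfold prd
      rw [Fintype.sum_prod_type, Fintype.sum_prod_type, Fintype.sum_prod_type, Fintype.sum_prod_type]
      refine sum_congr rfl fun u _ => ?_
      rw [sum_comm]
      refine sum_congr rfl fun x _ => sum_congr rfl fun v _ => ?_
      simp only; ring
    rw [← p2.ent (fun w => (sm T w.1.1 + T w.1.2) - sm T w.2)]
    congr 1
    funext w
    rw [Fin.sum_univ_add]
    simp only [Fin.addCases_left, Fin.addCases_right]
    unfold sm
    rw [sum_neg_distrib]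
    abel
  rw [← hL]
  refine h.trans ?_
  have s1 : H (prd μ' μ') (fun w => T w.1 + T w.2) - H μ' T ≤ κ := hκ
  have s2 : H (prd μ' μ') (fun w => - T w.1 + T w.2) - H μ' T ≤ 2 * κ := by
    have : H (prd μ' μ') (fun w => - T w.1 + T w.2) = H (prd μ' μ') (fun v => T v.1 - T v.2) := by
      refine H_congr ?_ ?_
      · intro u v e
        have e' : - T u.1 + T u.2 = - T v.1 + T v.2 := e
        have : -(- T u.1 + T u.2) = -(- T v.1 + T v.2) := by rw [e']
        show T u.1 - T u.2 = T v.1 - T v.2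
        have f1 : T u.1 - T u.2 = -(- T u.1 + T u.2) := by abel
        have f2 : T v.1 - T v.2 = -(- T v.1 + T v.2) := by abel
        rw [f1, f2, this]
      · intro u v e
        have e' : T u.1 - T u.2 = T v.1 - T v.2 := e
        show - T u.1 + T u.2 = - T v.1 + T v.2
        have f1 : - T u.1 + T u.2 = -(T u.1 - T u.2) := by abel
        have f2 : - T v.1 + T v.2 = -(T v.1 - T v.2) := by abel
        rw [f1, f2, e']
    rw [this]
    exact hdiff
  have hm0 : (0 : ℝ) ≤ m := Nat.cast_nonneg m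
  have t1 := mul_le_mul_of_nonneg_left s1 hm0
  have t2 := mul_le_mul_of_nonneg_left s2 (Nat.cast_nonneg (α := ℝ) (m + 1))
  push_cast at t2 ⊢
  nlinarith

end noise

end Vale.Agent.P091.AD.H491
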