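import Vale.Agent.P091.AD.Base
import Vale.Agent.P091.AD.H921.Ruz

/-!
# P091, AD block, row AD-9 (helper491), part 1: product spaces, words, conditional independence
-/

set_option autoImplicit false

open Finset Real
open Vale.Agent.P065.Ent

noncomputable section

namespace Vale.Agent.P091.AD.H491

variable {Ω Ω' : Type*} [Fintype Ω] [Fintype Ω'] {α β γ δ : Type*}

/-! ## Push-forward -/

/-- `μ'` is the image of `μ` under `φ` -/
def Push (μ : Ω → ℝ) (φ : Ω → Ω') (μ' : Ω' → ℝ) : Prop :=
  ∀ g : Ω' → ℝ, ∑ ω, μ ω * g (φ ω) = ∑ ω', μ' ω' * g ω'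

variable {μ : Ω → ℝ} {μ' : Ω' → ℝ} {φ : Ω → Ω'}

lemma Push.pr (h : Push μ φ μ') (X : Ω' → α) (x : α) :
    Pr μ (fun ω => X (φ ω)) x = Pr μ' X x := by
  classical
  have h1 := h (fun ω' => if X ω' = x then 1 else 0)
  unfold Pr
  simpa [mul_ite] using h1

lemma Push.ent (h : Push μ φ μ') (X : Ω' → α) : H μ (fun ω => X (φ ω)) = H μ' X := by
  unfold H
  rw [← h]
  exact sum_congr rfl fun ω _ => by rw [h.pr X]

lemma Push.entc (h : Push μ φ μ') (X : Ω' → α) (Y : Ω' → β) :
    Hc μ (fun ω => X (φ ω)) (fun ω => Y (φ ω)) = Hc μ' X Y := by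
  unfold Hc
  rw [← h.ent Y, ← h.ent (fun ω' => (X ω', Y ω'))]

lemma Push.inf (h : Push μ φ μ') (X : Ω' → α) (Y : Ω' → β) (Z : Ω' → γ) :
    I μ (fun ω => X (φ ω)) (fun ω => Y (φ ω)) (fun ω => Z (φ ω)) = I μ' X Y Z := by
  unfold I
  rw [← h.entc X Z, ← h.entc X (fun ω' => (Y ω', Z ω'))]

lemma Push.isProb (h : Push μ φ μ') (hμ : IsProb μ) (h0 : ∀ ω, 0 ≤ μ' ω) : IsProb μ' := by
  refine ⟨h0, ?_⟩
  have := h (fun _ => 1)
  simp only [mul_one] at this
  rw [← this, hμ.sum]

/-- entropy does not see null sets -/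
lemma Pr_ae {X X' : Ω → α} (h : ∀ ω, μ ω ≠ 0 → X ω = X' ω) (x : α) :
    Pr μ X x = Pr μ X' x := by
  classical
  unfold Pr
  refine sum_congr rfl fun ω _ => ?_
  by_cases h0 : μ ω = 0
  · simp [h0]
  · rw [h ω h0]

lemma H_ae {X X' : Ω → α} (h : ∀ ω, μ ω ≠ 0 → X ω = X' ω) : H μ X = H μ X' := by
  unfold H
  refine sum_congr rfl fun ω _ => ?_
  by_cases h0 : μ ω = 0
  · simp [h0]
  · rw [Pr_ae h, h ω h0]

lemma Hc_ae {X X' : Ω → α} {Y Y' : Ω → β} (h : ∀ ω, μ ω ≠ 0 → X ω = X' ω)
    (h' : ∀ ω, μ ω ≠ 0 → Y ω = Y' ω) : Hc μ X Y = Hc μ X' Y' := by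
  unfold Hc
  rw [H_ae h', H_ae (X := fun ω => (X ω, Y ω)) (X' := fun ω => (X' ω, Y' ω)) fun ω h0 => by
    rw [h ω h0, h' ω h0]]

/-! ## Products of two spaces -/

/-- product weight -/
def prd (μ : Ω → ℝ) (μ' : Ω' → ℝ) (w : Ω × Ω') : ℝ := μ w.1 * μ' w.2

lemma prd_isProb (hμ : IsProb μ) (hμ' : IsProb μ') : IsProb (prd μ μ') := mul_isProb hμ hμ'

lemma push_fst (μ : Ω → ℝ) (hμ' : IsProb μ') : Push (prd μ μ') Prod.fst μ := by
  intro g
  unfold prd
  rw [Fintype.sum_prod_type]
  refine sum_congr rfl fun ω _ => ?_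
  simp only
  rw [← sum_mul, ← mul_sum, hμ'.sum, mul_one]

lemma push_snd (hμ : IsProb μ) (μ' : Ω' → ℝ) : Push (prd μ μ') Prod.snd μ' := by
  intro g
  unfold prd
  rw [Fintype.sum_prod_type_right]
  refine sum_congr rfl fun ω _ => ?_
  simp only
  have : ∀ x, μ x * μ' ω * g ω = μ x * (μ' ω * g ω) := fun x => by ring
  rw [sum_congr rfl fun x _ => this x, ← sum_mul, hμ.sum, one_mul]

lemma Pr_prd (μ : Ω → ℝ) (μ' : Ω' → ℝ) (X : Ω → α) (Y : Ω' → β) (x : α) (y : β) :
    Pr (prd μ μ') (fun w => (X w.1, Y w.2)) (x, y) = Pr μ X x * Pr μ' Y y := by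
  classical
  unfold Pr prd
  rw [Fintype.sum_prod_type, sum_mul_sum]
  refine sum_congr rfl fun a _ => sum_congr rfl fun b _ => ?_
  by_cases h1 : X a = x <;> by_cases h2 : Y b = y <;> simp [h1, h2]

lemma H_prd (hμ : IsProb μ) (hμ' : IsProb μ') (X : Ω → α) (Y : Ω' → β) :
    H (prd μ μ') (fun w => (X w.1, Y w.2)) = H μ X + H μ' Y := by
  have h1 := (push_fst μ hμ') (fun ω => - log (Pr μ X (X ω)))
  have h2 := (push_snd hμ μ') (fun ω => - log (Pr μ' Y (Y ω)))
  unfold H
  rw [← h1, ← h2, ← sum_add_distrib]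
  refine sum_congr rfl fun w _ => ?_
  rw [Pr_prd]
  rcases ((prd_isProb hμ hμ').nonneg w).eq_or_lt with h0 | h0
  · rw [← h0]; ring
  · have p1 : 0 < μ w.1 := by
      rcases (hμ.nonneg w.1).eq_or_lt with h | h
      · unfold prd at h0; rw [← h, zero_mul] at h0; exact absurd h0 (lt_irrefl _)
      · exact h
    have p2 : 0 < μ' w.2 := by
      rcases (hμ'.nonneg w.2).eq_or_lt with h | h
      · unfold prd at h0; rw [← h, mul_zero] at h0; exact absurd h0 (lt_irrefl _)
      · exact h
    rw [log_mul (Pr_pos hμ X p1).ne' (Pr_pos hμ' Y p2).ne']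
    ring

lemma H_fst (μ : Ω → ℝ) (hμ' : IsProb μ') (X : Ω → α) :
    H (prd μ μ') (fun w => X w.1) = H μ X := (push_fst μ hμ').ent X

lemma H_snd (hμ : IsProb μ) (μ' : Ω' → ℝ) (Y : Ω' → β) :
    H (prd μ μ') (fun w => Y w.2) = H μ' Y := (push_snd hμ μ').ent Y

lemma Hc_fst (μ : Ω → ℝ) (hμ' : IsProb μ') (X : Ω → α) (Y : Ω → β) :
    Hc (prd μ μ') (fun w => X w.1) (fun w => Y w.1) = Hc μ X Y := (push_fst μ hμ').entc X Y

/-- variables of the two factors are independent given variables of the factors -/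
lemma I_prd (hμ : IsProb μ) (hμ' : IsProb μ') (X : Ω → α) (Y : Ω' → β) (Z : Ω → γ) (W : Ω' → δ) :
    I (prd μ μ') (fun w => X w.1) (fun w => Y w.2) (fun w => (Z w.1, W w.2)) = 0 := by
  unfold I Hc
  have e1 : H (prd μ μ') (fun w => (X w.1, (Z w.1, W w.2))) =
      H μ (fun ω => (X ω, Z ω)) + H μ' W := by
    rw [← H_prd hμ hμ' (fun ω => (X ω, Z ω)) W]
    refine H_congr ?_ ?_ <;>
    · intro a b e
      simp only [Prod.mk.injEq] at e ⊢
      tauto
  have e2 : H (prd μ μ') (fun w => (Z w.1, W w.2)) = H μ Z + H μ' W :=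
    H_prd hμ hμ' Z W
  have e3 : H (prd μ μ') (fun w => (X w.1, (Y w.2, (Z w.1, W w.2)))) =
      H μ (fun ω => (X ω, Z ω)) + H μ' (fun ω => (Y ω, W ω)) := by
    rw [← H_prd hμ hμ' (fun ω => (X ω, Z ω)) (fun ω => (Y ω, W ω))]
    refine H_congr ?_ ?_ <;>
    · intro a b e
      simp only [Prod.mk.injEq] at e ⊢
      tauto
  have e4 : H (prd μ μ') (fun w => (Y w.2, (Z w.1, W w.2))) =
      H μ Z + H μ' (fun ω => (Y ω, W ω)) := by
    rw [← H_prd hμ hμ' Z (fun ω => (Y ω, W ω))]
    refine H_congr ?_ ?_ <;>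
    · intro a b e
      simp only [Prod.mk.injEq] at e ⊢
      tauto
  rw [e1, e2, e3, e4]; ring

/-- conditioning on an independent variable -/
lemma Hc_snd_fst (hμ : IsProb μ) (hμ' : IsProb μ') (Y : Ω' → β) (Z : Ω → γ) :
    Hc (prd μ μ') (fun w => Y w.2) (fun w => Z w.1) = H μ' Y := by
  unfold Hc
  have : H (prd μ μ') (fun w => (Y w.2, Z w.1)) = H μ Z + H μ' Y := by
    rw [← H_prd hμ hμ' Z Y]
    exact H_swap _ _ _
  rw [this, H_fst μ hμ' Z]; ring

/-! ## Words -/

section words
variable {ι : Type*} [Fintype ι] [DecidableEq ι] {L : Type*} [Fintype L] {b : L → ℝ}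

lemma sum_pw (b : L → ℝ) (F : ι → L → ℝ) :
    ∑ u : ι → L, pw b u * ∏ i, F i (u i) = ∏ i, ∑ l, b l * F i l := by
  have h := Finset.prod_univ_sum (fun _ : ι => (univ : Finset L)) (fun i l => b l * F i l)
  rw [Fintype.piFinset_univ] at h
  rw [h]
  refine sum_congr rfl fun u _ => ?_
  unfold pw
  rw [prod_mul_distrib]

/-- law of a word of variables -/
lemma Pr_pw {κ : ι → Type*} (b : L → ℝ) (f : ∀ i, L → κ i) (v : ∀ i, κ i) :
    Pr (pw b) (fun (u : ι → L) i => f i (u i)) v = ∏ i, Pr b (f i) (v i) := by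
  classical
  have h := sum_pw b (fun i l => if f i l = v i then (1 : ℝ) else 0)
  have h1 : ∀ u : ι → L, pw b u * ∏ i, (if f i (u i) = v i then (1 : ℝ) else 0) =
      if (fun i => f i (u i)) = v then pw b u else 0 := by
    intro u
    by_cases hu : (fun i => f i (u i)) = v
    · rw [if_pos hu, prod_eq_one fun i _ => if_pos (congrFun hu i), mul_one]
    · rw [if_neg hu]
      obtain ⟨i, hi⟩ : ∃ i, f i (u i) ≠ v i := by
        by_contra hcon
        push Not at hcon
        exact hu (funext hcon)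
      rw [prod_eq_zero (mem_univ i) (if_neg hi), mul_zero]
  rw [sum_congr rfl fun u _ => h1 u] at h
  unfold Pr
  refine (sum_congr rfl fun u _ => ?_).trans (h.trans ?_)
  · by_cases hu : (fun i => f i (u i)) = v
    · rw [if_pos hu, if_pos hu]
    · rw [if_neg hu, if_neg hu]
  · refine prod_congr rfl fun i _ => sum_congr rfl fun l _ => ?_
    by_cases hl : f i l = v i
    · rw [if_pos hl, if_pos hl, mul_one]
    · rw [if_neg hl, if_neg hl, mul_zero]

lemma push_coord (hb : IsProb b) (i : ι) : Push (pw b) (fun u : ι → L => u i) b := by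
  classical
  intro g
  have h := sum_pw b (fun j l => if j = i then g l else 1)
  have h1 : ∀ u : ι → L, ∏ j, (if j = i then g (u j) else 1) = g (u i) := by
    intro u
    rw [prod_ite_eq' univ i (fun j => g (u j)), if_pos (mem_univ i)]
  rw [sum_congr rfl fun u _ => by rw [h1 u]] at h
  rw [h, prod_eq_single i]
  · simp
  · intro j _ hj
    simp [hj, hb.sum]
  · intro h; exact absurd (mem_univ i) h

omit [DecidableEq ι] in
lemma pw_pos_coord (hb : IsProb b) {u : ι → L} (h : 0 < pw b u) (i : ι) : 0 < b (u i) := by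
  rcases (hb.nonneg (u i)).eq_or_lt with h0 | h0
  · exfalso
    unfold pw at h
    rw [prod_eq_zero (mem_univ i) h0.symm] at h
    exact lt_irrefl _ h
  · exact h0

/-- **additivity of the entropy of a word** -/
lemma H_pw {κ : ι → Type*} (hb : IsProb b) (f : ∀ i, L → κ i) :
    H (pw b) (fun (u : ι → L) i => f i (u i)) = ∑ i, H b (f i) := by
  have h1 : ∀ i, H b (f i) = ∑ u : ι → L, pw b u * (- log (Pr b (f i) (f i (u i)))) := by
    intro i
    unfold H
    exact (push_coord hb i (fun l => - log (Pr b (f i) (f i l)))).symm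
  rw [sum_congr rfl fun i _ => h1 i, sum_comm]
  unfold H
  refine sum_congr rfl fun u _ => ?_
  rw [Pr_pw, ← mul_sum]
  rcases ((pw_isProb (ι := ι) hb).nonneg u).eq_or_lt with h0 | h0
  · rw [← h0]; ring
  · rw [log_prod fun i _ => (Pr_pos hb (f i) (pw_pos_coord hb h0 i)).ne', sum_neg_distrib]

/-- the word restricted to the positions of `S` -/
def rs (S : Finset ι) (u : ι → L) : ι → Option L := fun i => if i ∈ S then some (u i) else none

omit [Fintype ι] [Fintype L] in
lemma rs_det {S : Finset ι} {u v : ι → L} (h : rs S u = rs S v) {i : ι} (hi : i ∈ S) :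
    u i = v i := by
  have := congrFun h i
  simpa [rs, hi] using this

omit [Fintype L] in
lemma rs_univ_det {u v : ι → L} (h : rs univ u = rs univ v) : u = v :=
  funext fun i => rs_det h (mem_univ i)

/-- disjoint parts of a word are independent given the labels of the word -/
lemma I_words {ζ : Type*} (hb : IsProb b) (z : L → ζ) {S T : Finset ι} (h : Disjoint S T) :
    I (pw b) (rs S) (rs T) (lb z) = 0 := by
  classical
  rw [I_eq_add]
  unfold Hc
  have e1 : H (pw b) (fun u : ι → L => (rs S u, lb z u)) =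
      ∑ i, H b (fun l => ((if i ∈ S then some l else none), z l)) := by
    rw [← H_pw hb (fun i l => ((if i ∈ S then some l else none), z l))]
    refine H_congr ?_ ?_
    · intro u v e
      simp only [Prod.mk.injEq] at e
      funext i
      exact Prod.ext (congrFun e.1 i) (congrFun e.2 i)
    · intro u v e
      simp only [Prod.mk.injEq]
      constructor
      · funext i; exact (Prod.mk.inj (congrFun e i)).1
      · funext i; exact (Prod.mk.inj (congrFun e i)).2
  have e2 : H (pw b) (fun u : ι → L => (rs T u, lb z u)) =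
      ∑ i, H b (fun l => ((if i ∈ T then some l else none), z l)) := by
    rw [← H_pw hb (fun i l => ((if i ∈ T then some l else none), z l))]
    refine H_congr ?_ ?_
    · intro u v e
      simp only [Prod.mk.injEq] at e
      funext i
      exact Prod.ext (congrFun e.1 i) (congrFun e.2 i)
    · intro u v e
      simp only [Prod.mk.injEq]
      constructor
      · funext i; exact (Prod.mk.inj (congrFun e i)).1
      · funext i; exact (Prod.mk.inj (congrFun e i)).2
  have e3 : H (pw b) (fun u : ι → L => ((rs S u, rs T u), lb z u)) =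
      ∑ i, H b (fun l => (((if i ∈ S then some l else none),
        (if i ∈ T then some l else none)), z l)) := by
    rw [← H_pw hb (fun i l => (((if i ∈ S then some l else none),
        (if i ∈ T then some l else none)), z l))]
    refine H_congr ?_ ?_
    · intro u v e
      simp only [Prod.mk.injEq] at e
      funext i
      exact Prod.ext (Prod.ext (congrFun e.1.1 i) (congrFun e.1.2 i)) (congrFun e.2 i)
    · intro u v e
      simp only [Prod.mk.injEq]
      refine ⟨⟨?_, ?_⟩, ?_⟩
      · funext i; exact (Prod.mk.inj (Prod.mk.inj (congrFun e i)).1).1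
      · funext i; exact (Prod.mk.inj (Prod.mk.inj (congrFun e i)).1).2
      · funext i; exact (Prod.mk.inj (congrFun e i)).2
  have e4 : H (pw b) (lb z : (ι → L) → ι → ζ) = ∑ _i : ι, H b z := by
    rw [← H_pw hb (fun _ l => z l)]
    rfl
  rw [e1, e2, e3, e4, ← sum_sub_distrib, ← sum_sub_distrib, ← sum_sub_distrib,
    ← sum_add_distrib, ← sum_sub_distrib]
  refine sum_eq_zero fun i _ => ?_
  by_cases hS : i ∈ S
  · have hT : i ∉ T := fun hT => disjoint_left.mp h hS hT
    simp only [hS, hT, if_true, if_false]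
    have a1 : H b (fun l => ((none : Option L), z l)) = H b z :=
      H_congr (det_snd _ _) ((det_const z none).pair (Det.refl z))
    have a2 : H b (fun l => ((some l, (none : Option L)), z l)) =
        H b (fun l => (some l, z l)) := by
      refine H_congr ?_ ?_ <;>
      · intro u v e
        simp only [Prod.mk.injEq] at e ⊢
        tauto
    rw [a1, a2]; ring
  · by_cases hT : i ∈ T
    · simp only [hS, hT, if_true, if_false]
      have a1 : H b (fun l => ((none : Option L), z l)) = H b z :=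
        H_congr (det_snd _ _) ((det_const z none).pair (Det.refl z))
      have a2 : H b (fun l => (((none : Option L), some l), z l)) =
          H b (fun l => (some l, z l)) := by
        refine H_congr ?_ ?_ <;>
        · intro u v e
          simp only [Prod.mk.injEq] at e ⊢
          tauto
      rw [a1, a2]; ring
    · simp only [hS, hT, if_false]
      have a1 : H b (fun l => ((none : Option L), z l)) = H b z :=
        H_congr (det_snd _ _) ((det_const z none).pair (Det.refl z))
      have a2 : H b (fun l => (((none : Option L), (none : Option L)), z l)) = H b z :=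
        H_congr (det_snd _ _) ((det_const z _).pair (Det.refl z))
      rw [a1, a2]; ring

end words

end Vale.Agent.P091.AD.H491
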